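import Vale.Agent.P018.Asymp

namespace Vale.Agent.Results.P018.ErdosQuarticLargePrimes

open Finset Filter Topology

open Classical in
/-- Erdős's polynomial `n^4 + 2`.  (1) For all `X` and `Y ≥ 1`, the number of `1 ≤ n ≤ X` such that
`n^4 + 2` is divisible by the square of some integer `y > Y` is at most
`⌊(X^4 + 2) / Y^2⌋ * (⌊log_2 (X^2)⌋ + 1)`.  (2) Hence for every fixed `θ > 3/2` the number of
`1 ≤ n ≤ X` such that `p^2 ∣ n^4 + 2` for some prime `p > X^θ` is `o(X)`. -/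
theorem result :
    (∀ X Y : ℕ, 1 ≤ Y →
      ((Icc 1 X).filter (fun n => ∃ y : ℕ, Y < y ∧ y ^ 2 ∣ n ^ 4 + 2)).card
        ≤ ((X ^ 4 + 2) / Y ^ 2) * (Nat.log 2 (X ^ 2) + 1)) ∧
    (∀ θ : ℝ, 3 / 2 < θ →
      Tendsto (fun X : ℕ => (((Icc 1 X).filter
        (fun n => ∃ p : ℕ, p.Prime ∧ (X : ℝ) ^ θ < p ∧ p ^ 2 ∣ n ^ 4 + 2)).card : ℝ) / X)
        atTop (𝓝 0)) :=
  ⟨Vale.Agent.P018.large_square_divisors, Vale.Agent.P018.large_primes_negligible⟩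

end Vale.Agent.Results.P018.ErdosQuarticLargePrimes
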